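import Vale.Agent.Lib.QInfo.Scalar
import Mathlib.Analysis.SpecialFunctions.Trigonometric.DerivHyp
import Mathlib.Analysis.Convex.Deriv
import Mathlib.Analysis.Convex.Jensen

/-! Convexity of the Wootters function. -/

open Real Set

namespace Vale.Agent.P358
open Vale.Agent.QInfo

lemma convexOn_sinh' : ConvexOn ℝ (Ici 0) Real.sinh := by
  apply MonotoneOn.convexOn_of_deriv (convex_Ici 0) Real.continuous_sinh.continuousOn
    Real.differentiable_sinh.differentiableOn
  intro x hx y hy hxy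
  rw [interior_Ici] at hx hy
  rw [Real.deriv_sinh, Real.cosh_le_cosh, abs_of_pos hx, abs_of_pos hy]
  exact hxy

lemma div_sinh_anti {u v : ℝ} (hu : 0 < u) (huv : u ≤ v) : v / sinh v ≤ u / sinh u := by
  have hv : 0 < v := lt_of_lt_of_le hu huv
  have h := convexOn_sinh'.2 (mem_Ici.mpr le_rfl) (mem_Ici.mpr hv.le)
    (show 0 ≤ 1 - u / v by rw [sub_nonneg, div_le_one hv]; exact huv)
    (show 0 ≤ u / v by positivity) (by ring)
  simp only [smul_eq_mul, mul_zero, zero_add, sinh_zero] at h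
  rw [div_mul_cancel₀ _ hv.ne'] at h
  rw [div_le_div_iff₀ (sinh_pos_iff.mpr hv) (sinh_pos_iff.mpr hu)]
  have := mul_le_mul_of_nonneg_left h hv.le
  have e : v * (u / v * sinh v) = u * sinh v := by field_simp
  linarith

/-- Wootters function of half the concurrence -/
noncomputable def wf (c : ℝ) : ℝ := H2 1 (c ^ 2)

lemma wf_continuous : Continuous wf := by
  unfold wf H2 rp rm
  fun_prop

lemma wf_deriv {c : ℝ} (h0 : 0 < c) (h1 : c < 1 / 2) :
    HasDerivAt wf (2 * (log (rp 1 (c ^ 2) / c) / sinh (log (rp 1 (c ^ 2) / c)))) c := by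
  have hpos : 0 < 1 ^ 2 - 4 * c ^ 2 := by nlinarith
  set s := √(1 ^ 2 - 4 * c ^ 2) with hs
  have hs0 : 0 < s := Real.sqrt_pos.mpr hpos
  have hss : s * s = 1 ^ 2 - 4 * c ^ 2 := Real.mul_self_sqrt hpos.le
  have hs1 : s < 1 := by nlinarith
  have d0 : HasDerivAt (fun c : ℝ => 1 ^ 2 - 4 * c ^ 2) (-(8 * c)) c := by
    have := ((hasDerivAt_pow 2 c).const_mul 4).const_sub (1 ^ 2)
    refine this.congr_deriv ?_
    simp; ring
  have d1 := d0.sqrt hpos.ne'
  have d2 := (hasDerivAt_negMulLog (x := (1 + s) / 2) (by positivity)).comp c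
    ((d1.const_add 1).div_const 2)
  have d3 := (hasDerivAt_negMulLog (x := (1 - s) / 2) (by linarith)).comp c
    ((d1.const_sub 1).div_const 2)
  have d4 := d2.add d3
  refine HasDerivAt.congr_deriv (f := wf) d4 ?_
  symm
  have hrp : rp 1 (c ^ 2) = (1 + s) / 2 := rfl
  rw [hrp, ← hs, Real.sinh_log (by positivity)]
  have e1 : (1 - s) / 2 = c ^ 2 / ((1 + s) / 2) := by field_simp; nlinarith
  have e2 : ((1 + s) / 2 / c - ((1 + s) / 2 / c)⁻¹) / 2 = s / (2 * c) := by
    field_simp; nlinarith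
  rw [e1, e2, log_div (by positivity) (by positivity), log_div (by positivity) (by positivity),
    log_div (x := c ^ 2) (by positivity) (by positivity), log_pow,
    log_div (by positivity) (by positivity)]
  field_simp
  push_cast
  ring

lemma one_lt_rp_div {c : ℝ} (h0 : 0 < c) (h1 : c < 1 / 2) : 1 < rp 1 (c ^ 2) / c := by
  rw [one_lt_div h0]
  unfold rp
  have := Real.sqrt_nonneg (1 ^ 2 - 4 * c ^ 2)
  generalize √(1 ^ 2 - 4 * c ^ 2) = r at *
  linarith

lemma wf_convexOn : ConvexOn ℝ (Icc 0 (1 / 2)) wf := by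
  apply MonotoneOn.convexOn_of_deriv (convex_Icc _ _) wf_continuous.continuousOn
  · intro c hc
    rw [interior_Icc] at hc
    exact (wf_deriv hc.1 hc.2).differentiableAt.differentiableWithinAt
  · intro x hx y hy hxy
    rw [interior_Icc] at hx hy
    rw [(wf_deriv hx.1 hx.2).deriv, (wf_deriv hy.1 hy.2).deriv]
    have h1 := one_lt_rp_div hy.1 hy.2
    have h2 : rp 1 (y ^ 2) / y ≤ rp 1 (x ^ 2) / x := by
      have hx0 := hx.1
      have hy0 := hy.1
      have : rp 1 (y ^ 2) ≤ rp 1 (x ^ 2) := by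
        unfold rp
        have : √(1 ^ 2 - 4 * y ^ 2) ≤ √(1 ^ 2 - 4 * x ^ 2) := Real.sqrt_le_sqrt (by nlinarith)
        gcongr
      have h3 : 0 ≤ rp 1 (x ^ 2) := rp_nonneg zero_le_one
      gcongr
    have := div_sinh_anti (log_pos h1) (log_le_log (by linarith) h2)
    linarith

lemma wf_monotoneOn : MonotoneOn wf (Icc 0 (1 / 2)) := by
  apply monotoneOn_of_deriv_nonneg (convex_Icc _ _) wf_continuous.continuousOn
  · intro c hc
    rw [interior_Icc] at hc
    exact (wf_deriv hc.1 hc.2).differentiableAt.differentiableWithinAt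
  · intro c hc
    rw [interior_Icc] at hc
    rw [(wf_deriv hc.1 hc.2).deriv]
    have h1 := log_pos (one_lt_rp_div hc.1 hc.2)
    have := sinh_pos_iff.mpr h1
    positivity

/-- Jensen inequality for the homogeneous two by two entropy in terms of root determinants. -/
lemma H2_jensen {ι : Type} [Fintype ι] (s c : ι → ℝ) (C : ℝ) (hc : ∀ i, 0 ≤ c i)
    (hcs : ∀ i, 2 * c i ≤ s i) (hs : ∑ i, s i = 1) (hC0 : 0 ≤ C) (hC : C ≤ ∑ i, c i) :
    H2 1 (C ^ 2) ≤ ∑ i, (H2 (s i) (c i ^ 2) - negMulLog (s i)) := by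
  have hs0 : ∀ i, 0 ≤ s i := fun i => by linarith [hc i, hcs i]
  have hmem : ∀ i, c i / s i ∈ Icc (0 : ℝ) (1 / 2) := fun i => by
    refine ⟨div_nonneg (hc i) (hs0 i), ?_⟩
    rcases (hs0 i).eq_or_lt with h | h
    · rw [← h]; norm_num
    · rw [div_le_iff₀ h]; linarith [hcs i]
  have hmul : ∀ i, s i * (c i / s i) = c i := fun i => by
    rcases (hs0 i).eq_or_lt with h | h
    · have : c i = 0 := by linarith [hc i, hcs i]
      simp [this]
    · field_simp
  have h1 := wf_convexOn.map_sum_le (t := Finset.univ) (w := s) (p := fun i => c i / s i)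
    (fun i _ => hs0 i) hs (fun i _ => hmem i)
  simp only [smul_eq_mul, hmul] at h1
  have hsum : ∑ i, c i ≤ 1 / 2 := by
    have := Finset.sum_le_sum (s := Finset.univ) fun i _ => hcs i
    rw [← Finset.mul_sum, hs] at this
    linarith
  have h2 := wf_monotoneOn ⟨hC0, hC.trans hsum⟩ ⟨hC0.trans hC, hsum⟩ hC
  refine h2.trans (h1.trans (le_of_eq ?_))
  refine Finset.sum_congr rfl fun i _ => ?_
  have := H2_smul (hs0 i) 1 ((c i / s i) ^ 2)
  rw [mul_one, ← mul_pow, hmul] at this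
  rw [this, wf]; ring

/-- triangle inequality for the root of a nonnegative binary quadratic form -/
lemma sqrt_quad_le {ι : Type} [Fintype ι] {A B C : ℝ} (hA : 0 ≤ A) (hC : 0 ≤ C)
    (hB : B ^ 2 ≤ A * C) (x z : ι → ℝ) :
    √(A * (∑ i, x i) ^ 2 + 2 * B * (∑ i, x i) * (∑ i, z i) + C * (∑ i, z i) ^ 2)
      ≤ ∑ i, √(A * x i ^ 2 + 2 * B * x i * z i + C * z i ^ 2) := by
  have hQ : ∀ x z : ℝ, 0 ≤ A * x ^ 2 + 2 * B * x * z + C * z ^ 2 := by
    intro x z
    rcases hA.eq_or_lt with h | h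
    · have : B = 0 := by rw [← h] at hB; nlinarith [sq_nonneg B]
      rw [← h, this]; simp; positivity
    · have : 0 ≤ A * (A * x ^ 2 + 2 * B * x * z + C * z ^ 2) := by
        nlinarith [sq_nonneg (A * x + B * z), mul_nonneg (sub_nonneg.mpr hB) (sq_nonneg z)]
      exact nonneg_of_mul_nonneg_right this h |> fun h' => by
        by_contra hn; push Not at hn; nlinarith
  set X := ∑ i, x i with hX
  set Z := ∑ i, z i with hZ
  set R := √(A * X ^ 2 + 2 * B * X * Z + C * Z ^ 2) with hR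
  have hR0 : 0 ≤ R := Real.sqrt_nonneg _
  rcases hR0.eq_or_lt with h | h
  · rw [← h]; exact Finset.sum_nonneg fun i _ => Real.sqrt_nonneg _
  have hRR : R * R = A * X ^ 2 + 2 * B * X * Z + C * Z ^ 2 := Real.mul_self_sqrt (hQ X Z)
  have h1 : ∀ i, (A * X + B * Z) * x i + (B * X + C * Z) * z i
      ≤ R * √(A * x i ^ 2 + 2 * B * x i * z i + C * z i ^ 2) := fun i => by
    rw [hR, ← Real.sqrt_mul (hQ X Z)]
    apply Real.le_sqrt_of_sq_le
    nlinarith [mul_nonneg (sub_nonneg.mpr hB) (sq_nonneg (X * z i - Z * x i))]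
  have h2 := Finset.sum_le_sum (s := Finset.univ) fun i _ => h1 i
  rw [Finset.sum_add_distrib, ← Finset.mul_sum, ← Finset.mul_sum, ← Finset.mul_sum, ← hX, ← hZ] at h2
  apply le_of_mul_le_mul_left _ h
  nlinarith

end Vale.Agent.P358
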