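import Mathlib.Analysis.Matrix.Order
import Mathlib.Analysis.SpecialFunctions.BinaryEntropy
import Mathlib.Analysis.SpecialFunctions.Log.Base

open scoped ComplexOrder

namespace Vale.Agent.P358

open Classical in
/-- von Neumann entropy in bits: minus the sum of `λ log₂ λ` over the eigenvalues -/
noncomputable def vN {d : Type} [Fintype d] [DecidableEq d] (ρ : Matrix d d ℂ) : ℝ :=
  if h : ρ.IsHermitian then -∑ i, h.eigenvalues i * Real.logb 2 (h.eigenvalues i) else 0

/-- density matrix -/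
def IsState {d : Type} [Fintype d] (ρ : Matrix d d ℂ) : Prop :=
  ρ.PosSemidef ∧ ρ.trace = 1

/-- the Holevo quantities of all finite ensembles of input states -/
def holevoValues {d e : Type} [Fintype d] [Fintype e] [DecidableEq e]
    (N : Matrix d d ℂ → Matrix e e ℂ) : Set ℝ :=
  {v | ∃ (k : ℕ) (q : Fin k → ℝ) (ρ : Fin k → Matrix d d ℂ),
    (∀ a, 0 ≤ q a) ∧ ∑ a, q a = 1 ∧ (∀ a, IsState (ρ a)) ∧
    v = vN (∑ a, (q a : ℂ) • N (ρ a)) - ∑ a, q a * vN (N (ρ a))}

/-- Holevo capacity -/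
noncomputable def chi {d e : Type} [Fintype d] [Fintype e] [DecidableEq e]
    (N : Matrix d d ℂ → Matrix e e ℂ) : ℝ :=
  sSup (holevoValues N)

/-- `n`-fold tensor power of a linear map between matrix algebras, acting on arbitrary
matrices over the `n`-fold product space -/
noncomputable def tensorPow {d e : Type} [Fintype d] [DecidableEq d]
    (N : Matrix d d ℂ →ₗ[ℂ] Matrix e e ℂ) (n : ℕ) (ρ : Matrix (Fin n → d) (Fin n → d) ℂ) :
    Matrix (Fin n → e) (Fin n → e) ℂ :=
  Matrix.of fun i j => ∑ k, ∑ l, ρ k l * ∏ m, N (Matrix.single (k m) (l m) 1) (i m) (j m)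

/-- the regularised Holevo quantities `χ(N^{⊗n}) / n`, `n ≥ 1` -/
def regularizedValues {d e : Type} [Fintype d] [DecidableEq d] [Fintype e] [DecidableEq e]
    (N : Matrix d d ℂ →ₗ[ℂ] Matrix e e ℂ) : Set ℝ :=
  {v | ∃ n : ℕ, 1 ≤ n ∧ v = chi (tensorPow N n) / n}

/-- unassisted classical capacity -/
noncomputable def capacity {d e : Type} [Fintype d] [DecidableEq d] [Fintype e] [DecidableEq e]
    (N : Matrix d d ℂ →ₗ[ℂ] Matrix e e ℂ) : ℝ :=
  sSup (regularizedValues N)

/-- generalized amplitude-damping channel, extended linearly to all two by two matrices -/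
noncomputable def gad (γ ν : ℝ) : Matrix (Fin 2) (Fin 2) ℂ →ₗ[ℂ] Matrix (Fin 2) (Fin 2) ℂ where
  toFun M :=
    !![M.trace - ((1 - γ) * M 1 1 + γ * ν * M.trace), √(1 - γ) * M 0 1;
       √(1 - γ) * M 1 0, (1 - γ) * M 1 1 + γ * ν * M.trace]
  map_add' M M' := by
    ext i j; fin_cases i <;> fin_cases j <;> simp [Matrix.trace_add] <;> ring
  map_smul' c M := by
    ext i j; fin_cases i <;> fin_cases j <;> simp [Matrix.trace_smul] <;> ring

/-- binary entropy in bits -/
noncomputable def h2 (p : ℝ) : ℝ := Real.binEntropy p / Real.log 2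

/-- the one-parameter objective: `h₂(t) - h₂((1 + √(1 - 4 (t (1 - t) - (1 - γ) q (1 - q)))) / 2)`
with `t = (1 - γ) q + γ ν` -/
noncomputable def objective (γ ν q : ℝ) : ℝ :=
  h2 ((1 - γ) * q + γ * ν) -
    h2 ((1 + √(1 - 4 * (((1 - γ) * q + γ * ν) * (1 - ((1 - γ) * q + γ * ν))
      - (1 - γ) * q * (1 - q)))) / 2)

end Vale.Agent.P358
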