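import Vale.Agent.Lib.QInfo.ThreeEdge

/-! The one step entropy inequality for the generalized amplitude-damping channel. -/

open Matrix Real
open scoped ComplexOrder MatrixOrder

set_option linter.unusedSectionVars false

namespace Vale.Agent.P358
open Vale.Agent.QInfo

variable {n : Type} [Fintype n] [DecidableEq n]

lemma negMulLog_add_le {u v : ℝ} (hu : 0 ≤ u) (hv : 0 ≤ v) :
    negMulLog (u + v) ≤ negMulLog u + negMulLog v := by
  have key : ∀ {u v : ℝ}, 0 ≤ u → 0 ≤ v → u * log u ≤ u * log (u + v) := by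
    intro u v hu hv
    rcases hu.eq_or_lt with h | h
    · simp [← h]
    · exact mul_le_mul_of_nonneg_left (log_le_log h (by linarith)) hu
  have h1 := key hu hv
  have h2 := key hv hu
  rw [add_comm v u] at h2
  simp only [negMulLog]
  nlinarith

lemma H2_ge {s d : ℝ} (hs : 0 ≤ s) (hd : 0 ≤ d) : negMulLog s ≤ H2 s d := by
  have := negMulLog_add_le (rp_nonneg (d := d) hs) (rm_nonneg hs hd)
  rwa [rp_add_rm] at this

lemma scale_psd {X Y Z : Matrix n n ℂ} (hW : (fromBlocks X Y Yᴴ Z).PosSemidef) (k l : ℝ) :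
    (fromBlocks (((k ^ 2 : ℝ) : ℂ) • X) (((k * l : ℝ) : ℂ) • Y) (((k * l : ℝ) : ℂ) • Y)ᴴ
      (((l ^ 2 : ℝ) : ℂ) • Z)).PosSemidef := by
  have := hW.conjTranspose_mul_mul_same
    (fromBlocks ((k : ℂ) • (1 : Matrix n n ℂ)) 0 0 ((l : ℂ) • (1 : Matrix n n ℂ)))
  rw [fromBlocks_conjTranspose, fromBlocks_multiply, fromBlocks_multiply] at this
  convert this using 2 <;> ext i j <;> simp [sq] <;> ring

lemma swap_psd {X Y Z : Matrix n n ℂ} (hW : (fromBlocks X Y Yᴴ Z).PosSemidef) :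
    (fromBlocks Z Yᴴ Yᴴᴴ X).PosSemidef := by
  have := hW.submatrix (Sum.swap : n ⊕ n → n ⊕ n)
  rw [fromBlocks_submatrix_sum_swap_sum_swap] at this
  simpa using this

/-- one two-Kraus piece -/
lemma piece {X Y Z : Matrix n n ℂ} (hW : (fromBlocks X Y Yᴴ Z).PosSemidef) (k l : ℝ) {b : ℝ}
    (hb : 0 ≤ b) :
    H2 (k ^ 2 * X.trace.re + b * Z.trace.re + l ^ 2 * Z.trace.re)
        (b * Z.trace.re * (l ^ 2 * Z.trace.re))
      + k ^ 2 * (ent X - negMulLog X.trace.re) + (b + l ^ 2) * (ent Z - negMulLog Z.trace.re)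
      ≤ ent (fromBlocks (((k ^ 2 : ℝ) : ℂ) • X + (b : ℂ) • Z) (((k * l : ℝ) : ℂ) • Y)
          (((k * l : ℝ) : ℂ) • Y)ᴴ (((l ^ 2 : ℝ) : ℂ) • Z)) := by
  have hX := posSemidef_block₁₁ hW
  have hZ := posSemidef_block₂₂ hW
  have h := three_edge (scale_psd hW k l) (P := (b : ℂ) • Z) (hZ.smul (by exact_mod_cast hb))
  rw [ent_smul hX.1, ent_smul hZ.1, ent_smul hZ.1] at h
  simp only [trace_smul, smul_eq_mul, Complex.re_ofReal_mul, F3, negMulLog_mul] at h
  linarith

lemma piece_psd {X Y Z : Matrix n n ℂ} (hW : (fromBlocks X Y Yᴴ Z).PosSemidef) (k l : ℝ) {b : ℝ}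
    (hb : 0 ≤ b) :
    (fromBlocks (((k ^ 2 : ℝ) : ℂ) • X + (b : ℂ) • Z) (((k * l : ℝ) : ℂ) • Y)
          (((k * l : ℝ) : ℂ) • Y)ᴴ (((l ^ 2 : ℝ) : ℂ) • Z)).PosSemidef := by
  have hZ := posSemidef_block₂₂ hW
  have hP : ((b : ℂ) • Z).PosSemidef := hZ.smul (by exact_mod_cast hb)
  have b2 : (fromBlocks ((b : ℂ) • Z) (0 : Matrix n n ℂ) (0 : Matrix n n ℂ)
      (0 : Matrix n n ℂ)).PosSemidef := by
    have := hP.conjTranspose_mul_mul_same (fromCols (1 : Matrix n n ℂ) (0 : Matrix n n ℂ))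
    rw [conjTranspose_fromCols_eq_fromRows_conjTranspose, fromRows_mul, fromRows_mul_fromCols]
      at this
    simpa using this
  have := (scale_psd hW k l).add b2
  rwa [fromBlocks_add, add_zero, add_zero, add_zero] at this

lemma two_pieces {X Y Z : Matrix n n ℂ} (hW : (fromBlocks X Y Yᴴ Z).PosSemidef)
    {a b c d e k l k' l' : ℝ} (hb : 0 ≤ b) (hd : 0 ≤ d) (had : a + d = 1) (hbe : b + e = 1)
    (h1 : k ^ 2 + k' ^ 2 = a) (h2 : l ^ 2 + l' ^ 2 = e) (h3 : k * l + k' * l' = c) :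
    (H2 (k ^ 2 * X.trace.re + b * Z.trace.re + l ^ 2 * Z.trace.re)
        (b * Z.trace.re * (l ^ 2 * Z.trace.re))
      - negMulLog (k ^ 2 * X.trace.re + b * Z.trace.re + l ^ 2 * Z.trace.re))
    + (H2 (l' ^ 2 * Z.trace.re + d * X.trace.re + k' ^ 2 * X.trace.re)
        (d * X.trace.re * (k' ^ 2 * X.trace.re))
      - negMulLog (l' ^ 2 * Z.trace.re + d * X.trace.re + k' ^ 2 * X.trace.re))
    + negMulLog (X.trace.re + Z.trace.re)
    + (ent X - negMulLog X.trace.re) + (ent Z - negMulLog Z.trace.re)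
      ≤ ent (fromBlocks ((a : ℂ) • X + (b : ℂ) • Z) ((c : ℂ) • Y) ((c : ℂ) • Yᴴ)
          ((d : ℂ) • X + (e : ℂ) • Z)) := by
  have p1 := piece hW k l hb
  have q1 := piece_psd hW k l hb
  have p2 := piece (swap_psd hW) l' k' hd
  have q2 := piece_psd (swap_psd hW) l' k' hd
  have q2' := q2.submatrix (Equiv.sumComm n n)
  rw [← ent_submatrix q2.1 (Equiv.sumComm n n)] at p2
  rw [Equiv.sumComm_apply, fromBlocks_submatrix_sum_swap_sum_swap] at p2 q2'
  have h := ent_add_ge q1 q2'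
  rw [fromBlocks_add] at h
  have t1 : ∀ A B C D : Matrix n n ℂ, (fromBlocks A B C D).trace = A.trace + D.trace := by
    intro A B C D; simp [Matrix.trace, Fintype.sum_sum_type]
  simp only [t1, trace_add, trace_smul, smul_eq_mul, Complex.add_re, Complex.re_ofReal_mul] at h
  have e1 : ((k ^ 2 : ℝ) : ℂ) • X + (b : ℂ) • Z + ((k' ^ 2 : ℝ) : ℂ) • X
      = (a : ℂ) • X + (b : ℂ) • Z := by
    rw [← h1]; push_cast; module
  have e2 : ((k * l : ℝ) : ℂ) • Y + (((l' * k' : ℝ) : ℂ) • Yᴴ)ᴴ = (c : ℂ) • Y := by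
    rw [← h3, conjTranspose_smul, conjTranspose_conjTranspose, Complex.star_def, Complex.conj_ofReal]
    push_cast; module
  have e3 : (((k * l : ℝ) : ℂ) • Y)ᴴ + ((l' * k' : ℝ) : ℂ) • Yᴴ = (c : ℂ) • Yᴴ := by
    rw [← h3, conjTranspose_smul, Complex.star_def, Complex.conj_ofReal]
    push_cast; module
  have e4 : ((l ^ 2 : ℝ) : ℂ) • Z + (((l' ^ 2 : ℝ) : ℂ) • Z + (d : ℂ) • X)
      = (d : ℂ) • X + (e : ℂ) • Z := by
    rw [← h2]; push_cast; module
  rw [e1, e2, e3, e4] at h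
  have e5 : k ^ 2 * X.trace.re + b * Z.trace.re + l ^ 2 * Z.trace.re
      + (k' ^ 2 * X.trace.re + (l' ^ 2 * Z.trace.re + d * X.trace.re))
      = X.trace.re + Z.trace.re := by
    linear_combination X.trace.re * (h1 + had) + Z.trace.re * (h2 + hbe)
  have e6 : k' ^ 2 * X.trace.re + (l' ^ 2 * Z.trace.re + d * X.trace.re)
      = l' ^ 2 * Z.trace.re + d * X.trace.re + k' ^ 2 * X.trace.re := by ring
  rw [e5, e6] at h
  have e7 : k ^ 2 + (d + k' ^ 2) = 1 := by linarith
  have e8 : (b + l ^ 2) + l' ^ 2 = 1 := by linarith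
  linear_combination p1 + p2 + h - (ent X - negMulLog X.trace.re) * e7
    - (ent Z - negMulLog Z.trace.re) * e8

/-- determinant of the output of a pure input with populations `x`, `z` -/
def dlt (a b d e x z : ℝ) : ℝ := a * d * x ^ 2 + 2 * (b * d) * x * z + b * e * z ^ 2

/-- The one step inequality. -/
theorem gad_step {X Y Z : Matrix n n ℂ} (hW : (fromBlocks X Y Yᴴ Z).PosSemidef)
    {a b c d e : ℝ} (ha : 0 ≤ a) (hb : 0 ≤ b) (hd : 0 ≤ d) (he : 0 ≤ e) (had : a + d = 1)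
    (hbe : b + e = 1) (hc : a * e = c ^ 2 + b * d) :
    H2 (X.trace.re + Z.trace.re) (dlt a b d e X.trace.re Z.trace.re)
      + (ent X - negMulLog X.trace.re) + (ent Z - negMulLog Z.trace.re)
      ≤ ent (fromBlocks ((a : ℂ) • X + (b : ℂ) • Z) ((c : ℂ) • Y) ((c : ℂ) • Yᴴ)
          ((d : ℂ) • X + (e : ℂ) • Z)) := by
  have hx := trace_re_nonneg (posSemidef_block₁₁ hW)
  have hz := trace_re_nonneg (posSemidef_block₂₂ hW)
  have hD : 0 ≤ dlt a b d e X.trace.re Z.trace.re := by unfold dlt; positivity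
  rcases hD.eq_or_lt with h0 | hD
  · obtain ⟨k, l, k', l', h1, h2, h3⟩ :
        ∃ k l k' l' : ℝ, k ^ 2 + k' ^ 2 = a ∧ l ^ 2 + l' ^ 2 = e ∧ k * l + k' * l' = c := by
      rcases ha.eq_or_lt with h | h
      · have : c = 0 := by
          rw [← h] at hc; nlinarith [mul_nonneg hb hd, sq_nonneg c]
        exact ⟨0, √e, 0, 0, by simp [← h], by simp [Real.sq_sqrt he], by simp [this]⟩
      · have hs : 0 < √a := Real.sqrt_pos.mpr h
        refine ⟨√a, c / √a, 0, √(b * d / a), by simp [Real.sq_sqrt ha], ?_, by field_simp; simp⟩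
        rw [div_pow, Real.sq_sqrt ha, Real.sq_sqrt (by positivity)]
        field_simp; linarith
    have h := two_pieces hW hb hd had hbe h1 h2 h3
    have g1 := H2_ge (s := k ^ 2 * X.trace.re + b * Z.trace.re + l ^ 2 * Z.trace.re)
      (d := b * Z.trace.re * (l ^ 2 * Z.trace.re)) (by positivity) (by positivity)
    have g2 := H2_ge (s := l' ^ 2 * Z.trace.re + d * X.trace.re + k' ^ 2 * X.trace.re)
      (d := d * X.trace.re * (k' ^ 2 * X.trace.re)) (by positivity) (by positivity)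
    have g3 := H2_diag (X.trace.re + Z.trace.re) 0
    rw [add_zero, mul_zero, negMulLog_zero, add_zero] at g3
    rw [← h0, g3]
    linarith
  · set x := X.trace.re with hxdef
    set z := Z.trace.re with hzdef
    set Δ := dlt a b d e x z with hΔ
    have hΔ' : Δ = a * d * x ^ 2 + 2 * (b * d) * x * z + b * e * z ^ 2 := rfl
    set r := √Δ with hr
    have hr0 : 0 < r := Real.sqrt_pos.mpr hD
    have hrr : r ^ 2 = Δ := Real.sq_sqrt hD.le
    have hsb : √b ^ 2 = b := Real.sq_sqrt hb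
    have hsd : √d ^ 2 = d := Real.sq_sqrt hd
    have k1 : (√b * c * z / r) ^ 2 = b * c ^ 2 * z ^ 2 / Δ := by
      rw [div_pow, mul_pow, mul_pow, hsb, hrr]
    have k2 : (√d * (a * x + b * z) / r) ^ 2 = d * (a * x + b * z) ^ 2 / Δ := by
      rw [div_pow, mul_pow, hsd, hrr]
    have k3 : (√b * (d * x + e * z) / r) ^ 2 = b * (d * x + e * z) ^ 2 / Δ := by
      rw [div_pow, mul_pow, hsb, hrr]
    have k4 : (√d * c * x / r) ^ 2 = d * c ^ 2 * x ^ 2 / Δ := by
      rw [div_pow, mul_pow, mul_pow, hsd, hrr]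
    have hc' : c ^ 2 = a * e - b * d := by linarith
    have h := two_pieces hW hb hd had hbe (k := √b * c * z / r) (l := √b * (d * x + e * z) / r)
      (k' := √d * (a * x + b * z) / r) (l' := √d * c * x / r) (c := c)
      (by rw [k1, k2, hc']; field_simp; rw [hΔ']; ring)
      (by rw [k3, k4, hc']; field_simp; rw [hΔ']; ring)
      (by
        have : √b * c * z / r * (√b * (d * x + e * z) / r)
            + √d * (a * x + b * z) / r * (√d * c * x / r)
            = c * (√b ^ 2 * z * (d * x + e * z) + √d ^ 2 * x * (a * x + b * z)) / r ^ 2 := by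
          field_simp
        rw [this, hsb, hsd, hrr]; field_simp; rw [hΔ']; ring)
    rw [k1, k2, k3, k4, ← hxdef, ← hzdef] at h
    set w := b * z * (d * x + e * z) / Δ with hw
    set w' := d * x * (a * x + b * z) / Δ with hw'
    have hw0 : 0 ≤ w := by positivity
    have hw0' : 0 ≤ w' := by positivity
    have hww : w + w' = 1 := by rw [hw, hw']; field_simp; rw [hΔ']; ring
    have hea : a = 1 - d := by linarith
    have heb : e = 1 - b := by linarith
    have s1 : b * c ^ 2 * z ^ 2 / Δ * x + b * z + b * (d * x + e * z) ^ 2 / Δ * z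
        = w * (x + z) := by
      rw [hw, hc']; field_simp; rw [hΔ', hea, heb]; ring
    have s2 : d * c ^ 2 * x ^ 2 / Δ * z + d * x + d * (a * x + b * z) ^ 2 / Δ * x
        = w' * (x + z) := by
      rw [hw', hc']; field_simp; rw [hΔ', hea, heb]; ring
    have s3 : b * z * (b * (d * x + e * z) ^ 2 / Δ * z) = w ^ 2 * Δ := by
      rw [hw]; field_simp
    have s4 : d * x * (d * (a * x + b * z) ^ 2 / Δ * x) = w' ^ 2 * Δ := by
      rw [hw']; field_simp
    rw [s1, s2, s3, s4, H2_smul hw0, H2_smul hw0', negMulLog_mul, negMulLog_mul] at h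
    linear_combination h - (H2 (x + z) Δ - negMulLog (x + z)) * hww

end Vale.Agent.P358
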