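import Vale.Agent.P358.Tensor
import Vale.Agent.P358.Step
import Vale.Agent.P358.Convex

/-! Additivity of the Holevo capacity of the generalized amplitude-damping channel. -/

open Matrix Real
open scoped ComplexOrder MatrixOrder

set_option linter.unusedSectionVars false

namespace Vale.Agent.P358
open Vale.Agent.QInfo

lemma vN_eq {d : Type} [Fintype d] [DecidableEq d] (ρ : Matrix d d ℂ) :
    vN ρ = ent ρ / log 2 := by
  unfold vN ent
  split_ifs with h
  · rw [Finset.sum_div, ← Finset.sum_neg_distrib]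
    refine Finset.sum_congr rfl fun i _ => ?_
    simp only [Real.logb, negMulLog]; ring
  · simp

variable {γ ν : ℝ}

lemma gad_trace (M : Matrix (Fin 2) (Fin 2) ℂ) : (gad γ ν M).trace = M.trace := by
  simp [gad, Matrix.trace_fin_two]

/-- Kraus operators -/
noncomputable def kraus (γ ν : ℝ) : Fin 4 → Matrix (Fin 2) (Fin 2) ℂ :=
  ![!![√(1 - ν), 0; 0, √(1 - ν) * √(1 - γ)], !![0, √(1 - ν) * √γ; 0, 0],
    !![√ν * √(1 - γ), 0; 0, √ν], !![0, 0; √ν * √γ, 0]]

lemma gad_kraus (hγ : γ ∈ Set.Icc (0 : ℝ) 1) (hν : ν ∈ Set.Icc (0 : ℝ) 1)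
    (M : Matrix (Fin 2) (Fin 2) ℂ) :
    gad γ ν M = ∑ c, kraus γ ν c * M * (kraus γ ν c)ᴴ := by
  have s : ∀ x : ℝ, 0 ≤ x → ((√x : ℝ) : ℂ) ^ 2 = x := fun x hx => by
    rw [← Complex.ofReal_pow, Real.sq_sqrt hx]
  have h1 := s γ hγ.1
  have h2 := s ν hν.1
  have h3 := s (1 - γ) (by linarith [hγ.2])
  have h4 := s (1 - ν) (by linarith [hν.2])
  push_cast at h3 h4
  ext i j
  simp only [Matrix.sum_apply, Matrix.mul_apply, conjTranspose_apply, Fin.sum_univ_two,
    Fin.sum_univ_four]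
  fin_cases i <;> fin_cases j <;> simp [gad, kraus, Matrix.trace_fin_two]
  · linear_combination (-(M 0 0)) * h4 - (M 1 1 * ((√γ : ℝ) : ℂ) ^ 2) * h4
      - (M 1 1 * (1 - ν)) * h1 - (M 0 0 * ((√(1 - γ) : ℝ) : ℂ) ^ 2) * h2 - (M 0 0 * ν) * h3
  · linear_combination (-(M 0 1 * ((√(1 - γ) : ℝ) : ℂ))) * h4
      - (M 0 1 * ((√(1 - γ) : ℝ) : ℂ)) * h2
  · linear_combination (-(M 1 0 * ((√(1 - γ) : ℝ) : ℂ))) * h4
      - (M 1 0 * ((√(1 - γ) : ℝ) : ℂ)) * h2
  · linear_combination (-(M 1 1)) * h2 - (M 0 0 * ((√γ : ℝ) : ℂ) ^ 2) * h2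
      - (M 0 0 * ν) * h1 - (M 1 1 * ((√(1 - γ) : ℝ) : ℂ) ^ 2) * h4 - (M 1 1 * (1 - ν)) * h3

lemma split_gad (n : ℕ) (ρ : Matrix (Fin (n + 1) → Fin 2) (Fin (n + 1) → Fin 2) ℂ) :
    (tensorPow (gad γ ν) (n + 1) ρ).submatrix (splitEquiv n) (splitEquiv n)
      = fromBlocks
        (((1 - γ * ν : ℝ) : ℂ) • tensorPow (gad γ ν) n (blk ρ 0 0)
          + ((γ * (1 - ν) : ℝ) : ℂ) • tensorPow (gad γ ν) n (blk ρ 1 1))
        (((√(1 - γ) : ℝ) : ℂ) • tensorPow (gad γ ν) n (blk ρ 0 1))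
        (((√(1 - γ) : ℝ) : ℂ) • tensorPow (gad γ ν) n (blk ρ 1 0))
        (((γ * ν : ℝ) : ℂ) • tensorPow (gad γ ν) n (blk ρ 0 0)
          + ((1 - γ * (1 - ν) : ℝ) : ℂ) • tensorPow (gad γ ν) n (blk ρ 1 1)) := by
  rw [submatrix_split]
  simp only [blk_tensorPow, Fin.sum_univ_two]
  congr 1
  · simp [gad, Matrix.trace_fin_two]; congr 1; ring
  · simp [gad, Matrix.trace_fin_two]
  · simp [gad, Matrix.trace_fin_two]
  · simp [gad, Matrix.trace_fin_two]; congr 1; ring

/-- objective in nats -/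
noncomputable def gnat (γ ν q : ℝ) : ℝ :=
  negMulLog (1 - ((1 - γ) * q + γ * ν)) + negMulLog ((1 - γ) * q + γ * ν)
    - H2 1 (dlt (1 - γ * ν) (γ * (1 - ν)) (γ * ν) (1 - γ * (1 - ν)) (1 - q) q)

lemma objective_eq (q : ℝ) : objective γ ν q = gnat γ ν q / log 2 := by
  unfold objective gnat h2 H2 rp rm
  rw [binEntropy_eq_negMulLog_add_negMulLog_one_sub, binEntropy_eq_negMulLog_add_negMulLog_one_sub]
  have e : (1 : ℝ) ^ 2 - 4 * dlt (1 - γ * ν) (γ * (1 - ν)) (γ * ν) (1 - γ * (1 - ν)) (1 - q) q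
      = 1 - 4 * (((1 - γ) * q + γ * ν) * (1 - ((1 - γ) * q + γ * ν))
      - (1 - γ) * q * (1 - q)) := by unfold dlt; ring
  rw [e]
  generalize √(1 - 4 * (((1 - γ) * q + γ * ν) * (1 - ((1 - γ) * q + γ * ν))
      - (1 - γ) * q * (1 - q))) = r
  rw [show 1 - (1 + r) / 2 = (1 - r) / 2 by ring]
  ring

lemma trace_fromBlocks' {n : Type} [Fintype n] (A B C D : Matrix n n ℂ) :
    (fromBlocks A B C D).trace = A.trace + D.trace := by
  simp [Matrix.trace, Fintype.sum_sum_type]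

lemma trace_submatrix_equiv {n m : Type} [Fintype n] [Fintype m] (A : Matrix n n ℂ) (e : m ≃ n) :
    (A.submatrix e e).trace = A.trace := by
  simp only [Matrix.trace, diag_apply, submatrix_apply]
  exact e.sum_comp fun i => A i i

theorem upper (hγ : γ ∈ Set.Icc (0 : ℝ) 1) (hν : ν ∈ Set.Icc (0 : ℝ) 1) {G : ℝ}
    (hG : ∀ q ∈ Set.Icc (0 : ℝ) 1, gnat γ ν q ≤ G) (n : ℕ) :
    ∀ (α : Type) [Fintype α] (ρ : α → Matrix (Fin n → Fin 2) (Fin n → Fin 2) ℂ),
      (∀ i, (ρ i).PosSemidef) → ∑ i, (ρ i).trace.re = 1 →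
      ent (∑ i, tensorPow (gad γ ν) n (ρ i))
        - ∑ i, (ent (tensorPow (gad γ ν) n (ρ i)) - negMulLog (ρ i).trace.re) ≤ n * G := by
  have hK := gad_kraus hγ hν
  induction n with
  | zero =>
    intro α _ ρ hρ h1
    have key : ∀ M : Matrix (Fin 0 → Fin 2) (Fin 0 → Fin 2) ℂ, M.IsHermitian →
        ent M = negMulLog M.trace.re := by
      intro M hM
      rw [ent_eq hM, trace_re_eq hM]; simp
    have hs : (∑ i, tensorPow (gad γ ν) 0 (ρ i)).PosSemidef :=
      posSemidef_sum _ fun i _ => tensorPow_psd _ _ hK (hρ i)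
    rw [key _ hs.1, trace_sum, Complex.re_sum]
    simp only [tensorPow_trace _ gad_trace, h1, key _ (tensorPow_psd _ _ hK (hρ _)).1]
    simp
  | succ n ih =>
    intro α _ ρ hρ h1
    obtain ⟨hγ0, hγ1⟩ := hγ
    obtain ⟨hν0, hν1⟩ := hν
    set a := 1 - γ * ν with ha
    set b := γ * (1 - ν) with hb
    set d := γ * ν with hd
    set e := 1 - γ * (1 - ν) with he
    have ha0 : 0 ≤ a := by rw [ha]; nlinarith
    have hb0 : 0 ≤ b := by rw [hb]; nlinarith
    have hd0 : 0 ≤ d := by rw [hd]; nlinarith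
    have he0 : 0 ≤ e := by rw [he]; nlinarith
    have had : a + d = 1 := by rw [ha, hd]; ring
    have hbe : b + e = 1 := by rw [hb, he]; ring
    have hc : a * e = √(1 - γ) ^ 2 + b * d := by
      rw [Real.sq_sqrt (by linarith), ha, hb, hd, he]; ring
    have hblk : ∀ i, (fromBlocks (blk (ρ i) 0 0) (blk (ρ i) 0 1) (blk (ρ i) 1 0)
        (blk (ρ i) 1 1)).PosSemidef := fun i => by
      rw [← submatrix_split]; exact (hρ i).submatrix _
    set X := fun i => tensorPow (gad γ ν) n (blk (ρ i) 0 0) with hX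
    set Y := fun i => tensorPow (gad γ ν) n (blk (ρ i) 0 1) with hY
    set Y' := fun i => tensorPow (gad γ ν) n (blk (ρ i) 1 0) with hY'
    set Z := fun i => tensorPow (gad γ ν) n (blk (ρ i) 1 1) with hZ
    have hW : ∀ i, (fromBlocks (X i) (Y i) (Y' i) (Z i)).PosSemidef := fun i =>
      tensorPow_blocks_psd _ _ hK (hblk i)
    have hYY : ∀ i, Y' i = (Y i)ᴴ := fun i =>
      ((isHermitian_fromBlocks_iff.mp (hW i).1).2.1).symm
    set x := fun i => (blk (ρ i) 0 0).trace.re with hx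
    set z := fun i => (blk (ρ i) 1 1).trace.re with hz
    have hx0 : ∀ i, 0 ≤ x i := fun i => trace_re_nonneg (posSemidef_block₁₁ (hblk i))
    have hz0 : ∀ i, 0 ≤ z i := fun i => trace_re_nonneg (posSemidef_block₂₂ (hblk i))
    have hXx : ∀ i, (X i).trace.re = x i := fun i => by rw [hX, tensorPow_trace _ gad_trace]
    have hZz : ∀ i, (Z i).trace.re = z i := fun i => by rw [hZ, tensorPow_trace _ gad_trace]
    have htr : ∀ i, (ρ i).trace.re = x i + z i := fun i => by
      rw [← trace_submatrix_equiv _ (splitEquiv n), submatrix_split, trace_fromBlocks',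
        Complex.add_re]
    have hout : ∀ i, (tensorPow (gad γ ν) (n + 1) (ρ i)).PosSemidef := fun i =>
      tensorPow_psd _ _ hK (hρ i)
    -- lower bound on the output entropies
    have hstep : ∀ i, H2 (x i + z i) (dlt a b d e (x i) (z i))
        + (ent (X i) - negMulLog (x i)) + (ent (Z i) - negMulLog (z i))
        ≤ ent (tensorPow (gad γ ν) (n + 1) (ρ i)) := fun i => by
      have h := gad_step (X := X i) (Y := Y i) (Z := Z i) (by rw [← hYY]; exact hW i)
        ha0 hb0 hd0 he0 had hbe hc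
      rw [hXx, hZz, ← hYY] at h
      rw [← ent_submatrix (hout i).1 (splitEquiv n), split_gad]
      exact h
    -- upper bound on the entropy of the average
    have hsum : (∑ i, tensorPow (gad γ ν) (n + 1) (ρ i)).PosSemidef :=
      posSemidef_sum _ fun i _ => hout i
    have hsplit : (∑ i, tensorPow (gad γ ν) (n + 1) (ρ i)).submatrix (splitEquiv n) (splitEquiv n)
        = fromBlocks (∑ i, ((a : ℂ) • X i + (b : ℂ) • Z i)) (∑ i, ((√(1 - γ) : ℝ) : ℂ) • Y i)
          (∑ i, ((√(1 - γ) : ℝ) : ℂ) • Y' i) (∑ i, ((d : ℂ) • X i + (e : ℂ) • Z i)) := by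
      have : (∑ i, tensorPow (gad γ ν) (n + 1) (ρ i)).submatrix (splitEquiv n) (splitEquiv n)
          = ∑ i, (tensorPow (gad γ ν) (n + 1) (ρ i)).submatrix (splitEquiv n) (splitEquiv n) := by
        ext r s; simp [Matrix.sum_apply]
      rw [this]
      simp only [split_gad]
      ext (r | r) (s | s) <;> simp only [Matrix.sum_apply, fromBlocks_apply₁₁, fromBlocks_apply₁₂,
        fromBlocks_apply₂₁, fromBlocks_apply₂₂] <;> rfl
    have hs' := hsum.submatrix (splitEquiv n)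
    have hup := ent_fromBlocks_le (hsplit ▸ hs')
    rw [← hsplit, ent_submatrix hsum.1] at hup
    set q := ∑ i, z i with hq
    have hxs : ∑ i, x i = 1 - q := by
      simp only [htr, Finset.sum_add_distrib] at h1; linarith
    have hq0 : 0 ≤ q := Finset.sum_nonneg fun i _ => hz0 i
    have hq1 : q ≤ 1 := by
      have : 0 ≤ ∑ i, x i := Finset.sum_nonneg fun i _ => hx0 i
      linarith
    have t1 : (∑ i, ((a : ℂ) • X i + (b : ℂ) • Z i)).trace.re = 1 - ((1 - γ) * q + γ * ν) := by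
      simp only [trace_sum, trace_add, trace_smul, smul_eq_mul, Complex.re_sum, Complex.add_re,
        Complex.re_ofReal_mul, hXx, hZz, Finset.sum_add_distrib, ← Finset.mul_sum, hxs, ← hq]
      rw [ha, hb]; ring
    have t2 : (∑ i, ((d : ℂ) • X i + (e : ℂ) • Z i)).trace.re = (1 - γ) * q + γ * ν := by
      simp only [trace_sum, trace_add, trace_smul, smul_eq_mul, Complex.re_sum, Complex.add_re,
        Complex.re_ofReal_mul, hXx, hZz, Finset.sum_add_distrib, ← Finset.mul_sum, hxs, ← hq]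
      rw [hd, he]; ring
    have t3 : ∑ i, ((a : ℂ) • X i + (b : ℂ) • Z i) + ∑ i, ((d : ℂ) • X i + (e : ℂ) • Z i)
        = ∑ i, X i + ∑ i, Z i := by
      rw [← Finset.sum_add_distrib, ← Finset.sum_add_distrib]
      refine Finset.sum_congr rfl fun i _ => ?_
      have e1 : (a : ℂ) + d = 1 := by exact_mod_cast had
      have e2 : (b : ℂ) + e = 1 := by exact_mod_cast hbe
      calc _ = ((a : ℂ) + d) • X i + ((b : ℂ) + e) • Z i := by module
        _ = _ := by rw [e1, e2, one_smul, one_smul]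
    rw [t1, t2, t3, sub_add_cancel, negMulLog_one, sub_zero] at hup
    -- induction hypothesis
    have hih := ih (α ⊕ α) (Sum.elim (fun i => blk (ρ i) 0 0) (fun i => blk (ρ i) 1 1))
      (by
        rintro (i | i)
        · exact posSemidef_block₁₁ (hblk i)
        · exact posSemidef_block₂₂ (hblk i))
      (by
        rw [Fintype.sum_sum_type]
        simp only [Sum.elim_inl, Sum.elim_inr]
        linarith)
    simp only [Fintype.sum_sum_type, Sum.elim_inl, Sum.elim_inr] at hih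
    -- Jensen
    have hD0 : ∀ u v : ℝ, 0 ≤ u → 0 ≤ v → 0 ≤ dlt a b d e u v := fun u v hu hv => by
      unfold dlt; positivity
    have hJ := H2_jensen (fun i => x i + z i) (fun i => √(dlt a b d e (x i) (z i)))
      (√(dlt a b d e (1 - q) q)) (fun i => Real.sqrt_nonneg _)
      (fun i => by
        have hxi := hx0 i
        have hzi := hz0 i
        have : √(dlt a b d e (x i) (z i)) ≤ (x i + z i) / 2 := by
          rw [Real.sqrt_le_left (by positivity)]
          have e1 : dlt a b d e (x i) (z i) = (a * x i + b * z i) * (d * x i + e * z i)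
              - √(1 - γ) ^ 2 * (x i * z i) := by
            unfold dlt; linear_combination (-(x i * z i)) * hc
          have e2 : x i + z i = (a * x i + b * z i) + (d * x i + e * z i) := by
            linear_combination (-(x i)) * had - (z i) * hbe
          rw [e1, e2]
          nlinarith [sq_nonneg ((a * x i + b * z i) - (d * x i + e * z i)),
            mul_nonneg (sq_nonneg √(1 - γ)) (mul_nonneg hxi hzi)]
        linarith)
      (by rw [Finset.sum_add_distrib]; linarith) (Real.sqrt_nonneg _)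
      (by
        have := sqrt_quad_le (A := a * d) (B := b * d) (C := b * e) (by positivity) (by positivity)
          (by
            have : b * d ≤ a * e := by rw [hc]; nlinarith [sq_nonneg √(1 - γ)]
            nlinarith [mul_nonneg hb0 hd0]) x z
        rw [hxs] at this
        exact this)
    simp only [Real.sq_sqrt (hD0 _ _ (hx0 _) (hz0 _)),
      Real.sq_sqrt (hD0 _ _ (sub_nonneg.mpr hq1) hq0)] at hJ
    have hg := hG q ⟨hq0, hq1⟩
    unfold gnat at hg
    have hs := Finset.sum_le_sum (s := Finset.univ) fun i _ => hstep i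
    simp only [Finset.sum_add_distrib, Finset.sum_sub_distrib, htr] at hs hJ hih ⊢
    push_cast
    linarith

/-- the two optimal pure inputs -/
noncomputable def psi (q : ℝ) (s : Bool) : Matrix (Fin 2) (Fin 2) ℂ :=
  !![((1 - q : ℝ) : ℂ), (((if s then 1 else -1) * √(q * (1 - q)) : ℝ) : ℂ);
     (((if s then 1 else -1) * √(q * (1 - q)) : ℝ) : ℂ), (q : ℂ)]

lemma psi_trace (q : ℝ) (s : Bool) : (psi q s).trace = 1 := by
  simp [psi, Matrix.trace_fin_two]

lemma psi_psd {q : ℝ} (hq : q ∈ Set.Icc (0 : ℝ) 1) (s : Bool) : (psi q s).PosSemidef := by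
  have := posSemidef_vecMulVec_self_star
    (![((√(1 - q) : ℝ) : ℂ), (((if s then 1 else -1) * √q : ℝ) : ℂ)])
  convert this using 1
  have h1 : ((√(1 - q) : ℝ) : ℂ) * ((√(1 - q) : ℝ) : ℂ) = 1 - q := by
    rw [← Complex.ofReal_mul, Real.mul_self_sqrt (by linarith [hq.2])]; simp
  have h2 : ((√q : ℝ) : ℂ) * ((√q : ℝ) : ℂ) = q := by
    rw [← Complex.ofReal_mul, Real.mul_self_sqrt hq.1]
  ext i j
  fin_cases i <;> fin_cases j <;> cases s <;>
    simp [psi, vecMulVec_apply, Real.sqrt_mul hq.1, h1, h2, mul_comm]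

lemma ent_two {M : Matrix (Fin 2) (Fin 2) ℂ} (hM : M.IsHermitian) {s D : ℝ} (hs : M.trace = s)
    (hD : M.det = D) (h : 4 * D ≤ s ^ 2) : ent M = H2 s D := by
  rw [ent_of_charpoly hM ![rp s D, rm s D]]
  · simp [H2]
  · rw [Matrix.charpoly_fin_two, hs, hD, Fin.prod_univ_two]
    have h1 : (s : ℂ) = (rp s D : ℂ) + (rm s D : ℂ) := by exact_mod_cast (rp_add_rm s D).symm
    have h2 : (D : ℂ) = (rp s D : ℂ) * (rm s D : ℂ) := by exact_mod_cast (rp_mul_rm h).symm
    simp only [Matrix.cons_val_zero, Matrix.cons_val_one]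
    generalize (rp s D : ℂ) = u at *
    generalize (rm s D : ℂ) = v at *
    rw [h1, h2, Polynomial.C_add, Polynomial.C_mul]; ring

lemma ent_gad_psi (hγ : γ ∈ Set.Icc (0 : ℝ) 1) (hν : ν ∈ Set.Icc (0 : ℝ) 1) {q : ℝ}
    (hq : q ∈ Set.Icc (0 : ℝ) 1) (s : Bool) :
    (gad γ ν (psi q s)).IsHermitian ∧ ent (gad γ ν (psi q s))
      = H2 1 (dlt (1 - γ * ν) (γ * (1 - ν)) (γ * ν) (1 - γ * (1 - ν)) (1 - q) q) := by
  have hH : (gad γ ν (psi q s)).IsHermitian := by
    rw [gad_kraus hγ hν]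
    exact (posSemidef_sum _ fun c _ => (psi_psd hq s).mul_mul_conjTranspose_same _).1
  refine ⟨hH, ent_two hH (by rw [gad_trace, psi_trace]; simp) ?_ ?_⟩
  · have h1 : ((√(1 - γ) : ℝ) : ℂ) ^ 2 = 1 - γ := by
      rw [← Complex.ofReal_pow, Real.sq_sqrt (by linarith [hγ.2])]; simp
    have h2 : ((√(q * (1 - q)) : ℝ) : ℂ) ^ 2 = q * (1 - q) := by
      rw [← Complex.ofReal_pow, Real.sq_sqrt (mul_nonneg hq.1 (by linarith [hq.2]))]; simp
    rw [Matrix.det_fin_two]
    cases s <;> simp [gad, psi, dlt, Matrix.trace_fin_two] <;>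
      linear_combination (-((√(q * (1 - q)) : ℝ) : ℂ) ^ 2) * h1 - (1 - (γ : ℂ)) * h2
  · have : dlt (1 - γ * ν) (γ * (1 - ν)) (γ * ν) (1 - γ * (1 - ν)) (1 - q) q
        = ((1 - γ) * q + γ * ν) * (1 - ((1 - γ) * q + γ * ν)) - (1 - γ) * (q * (1 - q)) := by
      unfold dlt; ring
    rw [this]
    nlinarith [sq_nonneg (1 - 2 * ((1 - γ) * q + γ * ν)),
      mul_nonneg (sub_nonneg.mpr hγ.2) (mul_nonneg hq.1 (sub_nonneg.mpr hq.2))]

theorem lower (hγ : γ ∈ Set.Icc (0 : ℝ) 1) (hν : ν ∈ Set.Icc (0 : ℝ) 1) {q : ℝ}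
    (hq : q ∈ Set.Icc (0 : ℝ) 1) (n : ℕ) :
    n * objective γ ν q ∈ holevoValues (tensorPow (gad γ ν) n) := by
  let E := (Fintype.equivFin (Fin n → Bool)).symm
  refine ⟨_, fun _ => (1 / 2) ^ n, fun a => piKron fun m => psi q (E a m), fun _ => by positivity,
    by simp, fun a => ⟨piKron_psd fun m => psi_psd hq _, by simp [piKron_trace, psi_trace]⟩, ?_⟩
  simp only [tensorPow_piKron, vN_eq]
  have h1 : ∀ a, ent (piKron fun m => gad γ ν (psi q (E a m)))
      = n * H2 1 (dlt (1 - γ * ν) (γ * (1 - ν)) (γ * ν) (1 - γ * (1 - ν)) (1 - q) q) := by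
    intro a
    rw [ent_piKron (fun m => (ent_gad_psi hγ hν hq _).1)
      (fun m => by rw [gad_trace, psi_trace])]
    simp [(ent_gad_psi hγ hν hq _).2]
  set t := (1 - γ) * q + γ * ν with ht
  have h2 : ∑ a, (((1 / 2 : ℝ) ^ n : ℝ) : ℂ) • piKron (fun m => gad γ ν (psi q (E a m)))
      = piKron fun _ : Fin n => diagonal fun i => ((![1 - t, t] i : ℝ) : ℂ) := by
    rw [E.sum_comp fun σ => (((1 / 2 : ℝ) ^ n : ℝ) : ℂ) • piKron (fun m => gad γ ν (psi q (σ m)))]
    ext i j
    simp only [Matrix.sum_apply, Matrix.smul_apply, piKron, of_apply, smul_eq_mul,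
      ← Finset.mul_sum]
    rw [sum_pi_prod fun m s => gad γ ν (psi q s) (i m) (j m)]
    have : (((1 / 2 : ℝ) ^ n : ℝ) : ℂ) = ∏ _m : Fin n, (1 / 2 : ℂ) := by simp
    rw [this, ← Finset.prod_mul_distrib]
    refine Finset.prod_congr rfl fun m _ => ?_
    generalize i m = r
    generalize j m = s
    fin_cases r <;> fin_cases s <;> simp [gad, psi, Matrix.trace_fin_two, ht] <;> ring
  have hd : (diagonal fun i => ((![1 - t, t] i : ℝ) : ℂ)).IsHermitian := by
    ext i j; fin_cases i <;> fin_cases j <;> simp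
  rw [h2, ent_piKron (fun _ => hd) (fun _ => by simp [Matrix.trace_fin_two]), ent_diagonal]
  simp only [h1, ← Finset.sum_mul, objective_eq, gnat]
  simp
  rw [← ht]; ring

theorem upper' (hγ : γ ∈ Set.Icc (0 : ℝ) 1) (hν : ν ∈ Set.Icc (0 : ℝ) 1) {G : ℝ}
    (hG : ∀ q ∈ Set.Icc (0 : ℝ) 1, objective γ ν q ≤ G) (n : ℕ) :
    n * G ∈ upperBounds (holevoValues (tensorPow (gad γ ν) n)) := by
  rintro v ⟨k, q, ρ, hq0, hq1, hρ, rfl⟩
  have hl : 0 < log 2 := log_pos one_lt_two
  have hK := gad_kraus hγ hν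
  have h := upper hγ hν (G := G * log 2) (fun q hq => by
    have := hG q hq
    rwa [objective_eq, div_le_iff₀ hl] at this) n (Fin k) (fun a => (q a : ℂ) • ρ a)
    (fun a => (hρ a).1.smul (by exact_mod_cast hq0 a)) (by simp [(hρ _).2, hq1])
  have e1 : ∀ a, tensorPow (gad γ ν) n ((q a : ℂ) • ρ a) = (q a : ℂ) • tensorPow (gad γ ν) n (ρ a) :=
    fun a => (tensorPowL (gad γ ν) n).map_smul _ _
  simp only [e1, ent_smul (tensorPow_psd _ _ hK (hρ _).1).1, tensorPow_trace _ gad_trace, (hρ _).2,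
    trace_smul, smul_eq_mul, mul_one, Complex.ofReal_re, Complex.one_re, one_mul,
    add_sub_cancel_right] at h
  simp only [vN_eq, ← mul_div_assoc, ← Finset.sum_div, ← sub_div]
  rw [div_le_iff₀ hl]
  linarith

lemma holevoValues_one :
    holevoValues (gad γ ν) = holevoValues (tensorPow (gad γ ν) 1) := by
  let e : (Fin 1 → Fin 2) ≃ Fin 2 := Equiv.funUnique _ _
  have key : ∀ M : Matrix (Fin 2) (Fin 2) ℂ,
      tensorPow (gad γ ν) 1 (M.submatrix e e) = (gad γ ν M).submatrix e e := by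
    intro M
    have h1 : ∀ M : Matrix (Fin 2) (Fin 2) ℂ, M.submatrix e e = piKron fun _ : Fin 1 => M := by
      intro M; ext i j; simp [piKron, e]
    rw [h1, h1, tensorPow_piKron]
  have hv : ∀ M : Matrix (Fin 2) (Fin 2) ℂ, vN (M.submatrix e e) = vN M := by
    intro M
    by_cases h : M.IsHermitian
    · rw [vN_eq, vN_eq, ent_submatrix h]
    · have : ¬ (M.submatrix e e).IsHermitian := by rwa [isHermitian_submatrix_equiv]
      simp [vN, h, this]
  have hval : ∀ (k : ℕ) (q : Fin k → ℝ) (ρ : Fin k → Matrix (Fin 2) (Fin 2) ℂ),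
      vN (∑ a, (q a : ℂ) • tensorPow (gad γ ν) 1 ((ρ a).submatrix e e))
        - ∑ a, q a * vN (tensorPow (gad γ ν) 1 ((ρ a).submatrix e e))
      = vN (∑ a, (q a : ℂ) • gad γ ν (ρ a)) - ∑ a, q a * vN (gad γ ν (ρ a)) := by
    intro k q ρ
    simp only [key, hv]
    rw [← hv (∑ a, (q a : ℂ) • gad γ ν (ρ a))]
    congr 2
    ext i j; simp [Matrix.sum_apply]
  ext v
  constructor
  · rintro ⟨k, q, ρ, hq0, hq1, hρ, rfl⟩
    exact ⟨k, q, fun a => (ρ a).submatrix e e, hq0, hq1,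
      fun a => ⟨(hρ a).1.submatrix _, by rw [trace_submatrix_equiv, (hρ a).2]⟩, (hval k q ρ).symm⟩
  · rintro ⟨k, q, ρ, hq0, hq1, hρ, rfl⟩
    refine ⟨k, q, fun a => (ρ a).submatrix e.symm e.symm, hq0, hq1,
      fun a => ⟨(hρ a).1.submatrix _, by rw [trace_submatrix_equiv, (hρ a).2]⟩, ?_⟩
    rw [← hval]; simp

lemma objective_continuous : Continuous (objective γ ν) := by
  unfold objective h2
  fun_prop

theorem main (hγ : γ ∈ Set.Icc (0 : ℝ) 1) (hν : ν ∈ Set.Icc (0 : ℝ) 1) :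
    (∀ n : ℕ, 1 ≤ n → IsGreatest (holevoValues (tensorPow (gad γ ν) n)) (n * chi (gad γ ν))
      ∧ chi (tensorPow (gad γ ν) n) = n * chi (gad γ ν)) ∧
    IsGreatest (holevoValues (gad γ ν)) (chi (gad γ ν)) ∧
    capacity (gad γ ν) = chi (gad γ ν) ∧
    IsGreatest (objective γ ν '' Set.Icc 0 1) (capacity (gad γ ν)) := by
  obtain ⟨q, hq, hmax⟩ := isCompact_Icc.exists_isMaxOn (Set.nonempty_Icc.mpr zero_le_one)
    (objective_continuous (γ := γ) (ν := ν)).continuousOn
  have hgr : ∀ n : ℕ, IsGreatest (holevoValues (tensorPow (gad γ ν) n)) (n * objective γ ν q) :=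
    fun n => ⟨lower hγ hν hq n, upper' hγ hν (fun p hp => hmax hp) n⟩
  have h1 : IsGreatest (holevoValues (gad γ ν)) (objective γ ν q) := by
    have := hgr 1
    rwa [← holevoValues_one, Nat.cast_one, one_mul] at this
  have hchi : chi (gad γ ν) = objective γ ν q := h1.csSup_eq
  have hn : ∀ n : ℕ, chi (tensorPow (gad γ ν) n) = n * objective γ ν q := fun n => (hgr n).csSup_eq
  have hcap : capacity (gad γ ν) = objective γ ν q := by
    have : regularizedValues (gad γ ν) = {objective γ ν q} := by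
      ext v
      constructor
      · rintro ⟨n, hn1, rfl⟩
        have : (n : ℝ) ≠ 0 := by positivity
        rw [hn, Set.mem_singleton_iff]; field_simp
      · rintro rfl
        exact ⟨1, le_rfl, by rw [hn]; simp⟩
    rw [capacity, this, csSup_singleton]
  refine ⟨fun n _ => ?_, ?_, ?_, ?_⟩
  · rw [hchi]; exact ⟨hgr n, hn n⟩
  · rw [hchi]; exact h1
  · rw [hchi, hcap]
  · rw [hcap]
    exact ⟨⟨q, hq, rfl⟩, by rintro _ ⟨p, hp, rfl⟩; exact hmax hp⟩

end Vale.Agent.P358
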