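import Vale.Agent.P358.Defs
import Vale.Agent.Lib.QInfo.Entropy
import Mathlib.Algebra.BigOperators.Fin
import Mathlib.Algebra.BigOperators.Pi

/-! Tensor powers of matrix maps. -/

open Matrix Real
open scoped ComplexOrder MatrixOrder

set_option linter.unusedSectionVars false

namespace Vale.Agent.P358
open Vale.Agent.QInfo

variable {d e f : Type} [Fintype d] [DecidableEq d] [Fintype e] [DecidableEq e]
  [Fintype f] [DecidableEq f] {n : ℕ}

/-- Kronecker product of a family of matrices -/
def piKron (M : Fin n → Matrix d e ℂ) : Matrix (Fin n → d) (Fin n → e) ℂ :=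
  Matrix.of fun i j => ∏ m, M m (i m) (j m)

lemma sum_pi_prod {α : Type} [Fintype α] [DecidableEq α] {R : Type} [CommSemiring R]
    (g : Fin n → α → R) :
    ∑ k : Fin n → α, ∏ m, g m (k m) = ∏ m, ∑ a, g m a := by
  rw [Finset.prod_univ_sum, Fintype.piFinset_univ]

lemma piKron_mul (A : Fin n → Matrix d e ℂ) (B : Fin n → Matrix e f ℂ) :
    piKron A * piKron B = piKron fun m => A m * B m := by
  ext i j
  simp only [piKron, Matrix.mul_apply, of_apply, ← Finset.prod_mul_distrib]
  exact sum_pi_prod fun m a => A m (i m) a * B m a (j m)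

lemma piKron_conjTranspose (A : Fin n → Matrix d e ℂ) :
    (piKron A)ᴴ = piKron fun m => (A m)ᴴ := by
  ext i j
  simp [piKron, conjTranspose_apply]

lemma piKron_diagonal (x : Fin n → d → ℂ) :
    piKron (fun m => diagonal (x m)) = diagonal fun k => ∏ m, x m (k m) := by
  ext i j
  by_cases h : i = j
  · subst h; simp [piKron]
  · obtain ⟨m, hm⟩ := Function.ne_iff.mp h
    rw [diagonal_apply_ne _ h]
    exact Finset.prod_eq_zero (Finset.mem_univ m) (diagonal_apply_ne _ hm)

lemma piKron_one : piKron (fun _ : Fin n => (1 : Matrix d d ℂ)) = 1 := by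
  have := piKron_diagonal (n := n) (d := d) fun _ _ => 1
  simpa using this

lemma piKron_trace (M : Fin n → Matrix d d ℂ) : (piKron M).trace = ∏ m, (M m).trace := by
  simp only [Matrix.trace, diag_apply, piKron, of_apply]
  exact sum_pi_prod fun m a => M m a a

lemma piKron_psd {M : Fin n → Matrix d d ℂ} (h : ∀ m, (M m).PosSemidef) :
    (piKron M).PosSemidef := by
  choose B hB using fun m => CStarAlgebra.nonneg_iff_eq_star_mul_self.mp (h m).nonneg
  have : piKron M = (piKron B)ᴴ * piKron B := by
    rw [piKron_conjTranspose, piKron_mul]; congr 1; ext1 m; rw [hB m]; rfl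
  rw [this]; exact posSemidef_conjTranspose_mul_self _

lemma sum_cons {α : Type} [Fintype α] [DecidableEq α] {R : Type} [AddCommMonoid R]
    (g : (Fin (n + 1) → α) → R) :
    ∑ k, g k = ∑ a : α, ∑ k : Fin n → α, g (Fin.cons a k) := by
  rw [← (Fin.consEquiv fun _ => α).sum_comp, Fintype.sum_prod_type]
  rfl

lemma shannon_pi (x : Fin n → d → ℝ) (hx : ∀ m, ∑ a, x m a = 1) :
    ∑ k : Fin n → d, negMulLog (∏ m, x m (k m)) = ∑ m, ∑ a, negMulLog (x m a) := by
  induction n with
  | zero => simp
  | succ n ih =>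
    rw [sum_cons, Fin.sum_univ_succ, ← ih (fun m => x m.succ) (fun m => hx _)]
    simp only [Fin.prod_univ_succ, Fin.cons_zero, Fin.cons_succ, negMulLog_mul,
      Finset.sum_add_distrib, ← Finset.sum_mul, ← Finset.mul_sum, hx]
    rw [sum_pi_prod fun (m : Fin n) a => x m.succ a]
    simp [hx]

lemma ent_piKron {M : Fin n → Matrix d d ℂ} (h : ∀ m, (M m).IsHermitian)
    (ht : ∀ m, (M m).trace = 1) : ent (piKron M) = ∑ m, ent (M m) := by
  choose U h1 h2 h3 using fun m => exists_diag (h m)
  have hU : piKron U * (piKron U)ᴴ = 1 := by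
    rw [piKron_conjTranspose, piKron_mul, ← piKron_one]; congr 1; ext1 m; exact h1 m
  have hH : (piKron M).IsHermitian := by
    rw [IsHermitian, piKron_conjTranspose]; congr 1; ext1 m; exact h m
  rw [← ent_conj hH hU, piKron_conjTranspose, piKron_mul, piKron_mul]
  simp only [h3, piKron_diagonal, ← Complex.ofReal_prod]
  rw [ent_diagonal, shannon_pi]
  · exact Finset.sum_congr rfl fun m _ => (ent_eq (h m)).symm
  · intro m
    rw [← trace_re_eq (h m), ht]; simp

variable (N : Matrix d d ℂ →ₗ[ℂ] Matrix e e ℂ)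

lemma tensorPow_piKron (M : Fin n → Matrix d d ℂ) :
    tensorPow N n (piKron M) = piKron fun m => N (M m) := by
  ext i j
  simp only [tensorPow, piKron, of_apply, ← Finset.prod_mul_distrib]
  have : ∀ k : Fin n → d, ∑ l : Fin n → d,
      ∏ m, M m (k m) (l m) * N (single (k m) (l m) 1) (i m) (j m)
      = ∏ m, ∑ b, M m (k m) b * N (single (k m) b 1) (i m) (j m) := fun k =>
    sum_pi_prod fun m b => M m (k m) b * N (single (k m) b 1) (i m) (j m)
  simp only [this]
  rw [sum_pi_prod fun m a => ∑ b, M m a b * N (single a b 1) (i m) (j m)]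
  refine Finset.prod_congr rfl fun m _ => ?_
  conv_rhs => rw [Matrix.matrix_eq_sum_single (M m)]
  simp only [map_sum, Matrix.sum_apply]
  refine Finset.sum_congr rfl fun a _ => Finset.sum_congr rfl fun b _ => ?_
  rw [show single a b (M m a b) = M m a b • single a b (1 : ℂ) by simp, map_smul]
  simp

/-- the tensor power as a linear map -/
noncomputable def tensorPowL (n : ℕ) :
    Matrix (Fin n → d) (Fin n → d) ℂ →ₗ[ℂ] Matrix (Fin n → e) (Fin n → e) ℂ where
  toFun := tensorPow N n
  map_add' A B := by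
    ext i j; simp [tensorPow, add_mul, Finset.sum_add_distrib]
  map_smul' c A := by
    ext i j; simp [tensorPow, Finset.mul_sum, mul_assoc]

lemma tensorPow_trace (hN : ∀ M, (N M).trace = M.trace) (ρ : Matrix (Fin n → d) (Fin n → d) ℂ) :
    (tensorPow N n ρ).trace = ρ.trace := by
  simp only [Matrix.trace, diag_apply, tensorPow, of_apply]
  rw [Finset.sum_comm]
  refine Finset.sum_congr rfl fun k _ => ?_
  rw [Finset.sum_comm]
  have : ∀ l : Fin n → d, ∑ i : Fin n → e, ρ k l * ∏ m, N (single (k m) (l m) 1) (i m) (i m)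
      = ρ k l * (1 : Matrix (Fin n → d) (Fin n → d) ℂ) l k := by
    intro l
    rw [← Finset.mul_sum, sum_pi_prod fun m a => N (single (k m) (l m) 1) a a, ← piKron_one]
    congr 1
    refine Finset.prod_congr rfl fun m _ => ?_
    have := hN (single (k m) (l m) 1)
    simp only [Matrix.trace, diag_apply] at this
    rw [this]
    show _ = (1 : Matrix d d ℂ) (l m) (k m)
    by_cases h : k m = l m
    · rw [h, one_apply_eq]; simp [single]
    · have h' : ¬ l m = k m := fun h0 => h h0.symm
      rw [one_apply_ne h']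
      refine Finset.sum_eq_zero fun a _ => ?_
      rw [single_apply_of_ne]
      rintro ⟨h1, h2⟩; exact h (h1.trans h2.symm)
  simp only [this]
  rw [← Matrix.mul_apply, Matrix.mul_one]

lemma tensorPow_kraus {κ : Type} [Fintype κ] [DecidableEq κ] (K : κ → Matrix e d ℂ)
    (hN : ∀ M, N M = ∑ c, K c * M * (K c)ᴴ) (ρ : Matrix (Fin n → d) (Fin n → d) ℂ) :
    tensorPow N n ρ = ∑ c : Fin n → κ,
      piKron (fun m => K (c m)) * ρ * (piKron (fun m => K (c m)))ᴴ := by
  ext i j
  have h1 : ∀ a b i j, N (single a b 1) i j = ∑ c, K c i a * star (K c j b) := by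
    intro a b i j
    rw [hN, Matrix.sum_apply]
    refine Finset.sum_congr rfl fun c _ => ?_
    rw [Matrix.mul_apply, Finset.sum_eq_single b]
    · simp
    · intro b' _ hb; simp [hb]
    · simp
  simp only [tensorPow, of_apply, h1, Matrix.sum_apply, Matrix.mul_apply, conjTranspose_apply,
    piKron, ← sum_pi_prod, Finset.mul_sum, Finset.sum_mul]
  conv_rhs => rw [Finset.sum_comm]
  rw [Finset.sum_comm]
  refine Finset.sum_congr rfl fun l _ => ?_
  rw [Finset.sum_comm]
  refine Finset.sum_congr rfl fun c _ => Finset.sum_congr rfl fun k _ => ?_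
  rw [Finset.prod_mul_distrib, star_prod]; ring

lemma tensorPow_blocks_psd {κ : Type} [Fintype κ] [DecidableEq κ] (K : κ → Matrix e d ℂ)
    (hN : ∀ M, N M = ∑ c, K c * M * (K c)ᴴ) {A B C D : Matrix (Fin n → d) (Fin n → d) ℂ}
    (h : (fromBlocks A B C D).PosSemidef) :
    (fromBlocks (tensorPow N n A) (tensorPow N n B) (tensorPow N n C)
      (tensorPow N n D)).PosSemidef := by
  have : fromBlocks (tensorPow N n A) (tensorPow N n B) (tensorPow N n C) (tensorPow N n D)
      = ∑ c : Fin n → κ, fromBlocks (piKron (fun m => K (c m))) 0 0 (piKron (fun m => K (c m)))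
        * fromBlocks A B C D
        * (fromBlocks (piKron (fun m => K (c m))) 0 0 (piKron (fun m => K (c m))))ᴴ := by
    simp only [tensorPow_kraus N K hN, fromBlocks_conjTranspose, fromBlocks_multiply]
    ext (i | i) (j | j) <;> simp [Matrix.sum_apply]
  rw [this]
  exact posSemidef_sum _ fun c _ => h.mul_mul_conjTranspose_same _

lemma tensorPow_psd {κ : Type} [Fintype κ] [DecidableEq κ] (K : κ → Matrix e d ℂ)
    (hN : ∀ M, N M = ∑ c, K c * M * (K c)ᴴ) {A : Matrix (Fin n → d) (Fin n → d) ℂ}
    (h : A.PosSemidef) : (tensorPow N n A).PosSemidef := by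
  rw [tensorPow_kraus N K hN]
  exact posSemidef_sum _ fun c _ => h.mul_mul_conjTranspose_same _

/-- block of a matrix with the first tensor indices fixed -/
def blk (ρ : Matrix (Fin (n + 1) → d) (Fin (n + 1) → d) ℂ) (a b : d) :
    Matrix (Fin n → d) (Fin n → d) ℂ :=
  Matrix.of fun k l => ρ (Fin.cons a k) (Fin.cons b l)

lemma blk_tensorPow (ρ : Matrix (Fin (n + 1) → d) (Fin (n + 1) → d) ℂ) (i j : e) :
    blk (tensorPow N (n + 1) ρ) i j
      = ∑ a, ∑ b, N (single a b 1) i j • tensorPow N n (blk ρ a b) := by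
  ext r s
  simp only [blk, tensorPow, of_apply, Matrix.sum_apply, Matrix.smul_apply, smul_eq_mul]
  rw [sum_cons]
  refine Finset.sum_congr rfl fun a _ => ?_
  simp only [sum_cons (n := n), Fin.prod_univ_succ, Fin.cons_zero, Fin.cons_succ, Finset.mul_sum]
  rw [Finset.sum_comm]
  refine Finset.sum_congr rfl fun b _ => Finset.sum_congr rfl fun k _ =>
    Finset.sum_congr rfl fun l _ => by ring

/-- splitting off the first qubit -/
def splitEquiv (n : ℕ) : (Fin n → Fin 2) ⊕ (Fin n → Fin 2) ≃ (Fin (n + 1) → Fin 2) where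
  toFun := Sum.elim (fun k => Fin.cons 0 k) (fun k => Fin.cons 1 k)
  invFun g := if g 0 = 0 then Sum.inl (Fin.tail g) else Sum.inr (Fin.tail g)
  left_inv := by rintro (k | k) <;> simp
  right_inv g := by
    by_cases h : g 0 = 0
    · simp only [h, if_true, Sum.elim_inl]
      rw [← h, Fin.cons_self_tail]
    · have h1 : g 0 = 1 := by omega
      simp only [h, if_false, Sum.elim_inr]
      rw [← h1, Fin.cons_self_tail]

lemma submatrix_split (ρ : Matrix (Fin (n + 1) → Fin 2) (Fin (n + 1) → Fin 2) ℂ) :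
    ρ.submatrix (splitEquiv n) (splitEquiv n)
      = fromBlocks (blk ρ 0 0) (blk ρ 0 1) (blk ρ 1 0) (blk ρ 1 1) := by
  ext (i | i) (j | j) <;> rfl

end Vale.Agent.P358
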